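import Vale.Agent.Lib.P190.Finite
import Vale.Agent.Lib.P190.Param

/-!
# P190: two descent steps for small Cohen-Macaulay modules, in one statement

The class of local rings that admit a small Cohen-Macaulay module is closed under

* passing from a Noetherian local ring `S` down to a local ring `R` over which `S` is
  module-finite, `R → S` injective;
* passing from a Noetherian local ring `R` to its quotient `R/xR` by a parameter `x`.
-/

namespace Vale.Agent.Results.P190.DescentSteps

open Vale.Agent.Lib.P190

universe u

/-- (1) Let `R → S` be an injective module-finite homomorphism of local rings, `S` Noetherian.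
If `S` has a small Cohen-Macaulay module, then so does `R`.

(2) Let `R` be a Noetherian local ring and `x` an element such that `R/xR` is local (i.e. `x`
is a nonunit) and `dim R/xR < dim R` (i.e. `x` is a parameter). If `R` has a small
Cohen-Macaulay module, then so does `R/xR`. -/
theorem result :
    (∀ (R S : Type u) [CommRing R] [CommRing S] [IsLocalRing R] [IsLocalRing S]
        [IsNoetherianRing S] [Algebra R S] [Module.Finite R S],
        Function.Injective (algebraMap R S) → HasSmallCM S → HasSmallCM R) ∧
    (∀ (R : Type u) [CommRing R] [IsNoetherianRing R] [IsLocalRing R] (x : R)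
        [IsLocalRing (R ⧸ Ideal.span {x})],
        ringKrullDim (R ⧸ Ideal.span {x}) < ringKrullDim R → HasSmallCM R →
          HasSmallCM (R ⧸ Ideal.span {x})) :=
  ⟨fun _ _ _ _ _ _ _ _ _ hinj h => hasSmallCM_of_finite_of_injective hinj h,
    fun _ _ _ _ x _ hx h => hasSmallCM_quotient_span_singleton x hx h⟩

end Vale.Agent.Results.P190.DescentSteps
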