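import Vale.Agent.Lib.P190.Finite

/-!
# P190: small Cohen-Macaulay modules descend along module-finite extensions
-/

namespace Vale.Agent.Results.P190.FiniteDescent

open Vale.Agent.Lib.P190

universe u

/-- Let `R → S` be an injective module-finite homomorphism of local rings, `S` Noetherian.
If `S` has a small Cohen-Macaulay module, then so does `R`. -/
theorem result {R S : Type u} [CommRing R] [CommRing S] [IsLocalRing R] [IsLocalRing S]
    [IsNoetherianRing S] [Algebra R S] [Module.Finite R S]
    (hinj : Function.Injective (algebraMap R S)) (h : HasSmallCM S) : HasSmallCM R :=
  hasSmallCM_of_finite_of_injective hinj h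

end Vale.Agent.Results.P190.FiniteDescent
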