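import Vale.Agent.Lib.P190.Param

/-!
# P190: small Cohen-Macaulay modules descend to quotients by parameters
-/

namespace Vale.Agent.Results.P190.ParameterDescent

open Vale.Agent.Lib.P190

universe u

/-- Let `R` be a Noetherian local ring and `x` an element such that `R/xR` is local (i.e. `x`
is a nonunit) and `dim R/xR < dim R` (i.e. `x` is a parameter). If `R` has a small
Cohen-Macaulay module, then so does `R/xR`. -/
theorem result {R : Type u} [CommRing R] [IsNoetherianRing R] [IsLocalRing R] (x : R)
    [IsLocalRing (R ⧸ Ideal.span {x})]
    (hx : ringKrullDim (R ⧸ Ideal.span {x}) < ringKrullDim R) (h : HasSmallCM R) :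
    HasSmallCM (R ⧸ Ideal.span {x}) :=
  hasSmallCM_quotient_span_singleton x hx h

end Vale.Agent.Results.P190.ParameterDescent
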